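import Vale.Agent.P143.Main

open MeasureTheory Vale.Agent.P143
open scoped unitInterval

theorem Vale.Agent.Results.P143.Factor.result :
    (∀ (Γ : Type) [Group Γ] [Infinite Γ] (S : Set Γ), S.Finite → Subgroup.closure S = ⊤ →
      ∃ Φ : (Γ → I) → Sym2 Γ → Bool, Measurable Φ ∧
        (∀ U e, Φ U e = true → e ∈ (SimpleGraph.mulCayley S).edgeSet) ∧
        (∀ (γ : Γ) (U : Γ → I) (e : Sym2 Γ),
          Φ (fun v => U (γ⁻¹ * v)) (e.map fun v => γ * v) = Φ U e) ∧
        IsFUSF (SimpleGraph.mulCayley S) ((iid Γ).map Φ)) ∧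
    ∃ Φ : SimpleGraph ℕ → (ℕ → I) → Sym2 ℕ → Bool, Measurable (Function.uncurry Φ) ∧
      (∀ G U e, Φ G U e = true → e ∈ G.edgeSet) ∧
      (∀ (G G' : SimpleGraph ℕ) (φ : G ≃g G') (U U' : ℕ → I), (∀ v, U' (φ v) = U v) →
        ∀ e : Sym2 ℕ, Φ G' U' (e.map φ) = Φ G U e) ∧
      ∀ G : SimpleGraph ℕ, G.Connected → (∀ v, (G.neighborSet v).Finite) →
        IsFUSF G ((iid ℕ).map (Φ G)) := by
  refine ⟨fun Γ _ _ S h1 h2 => ?_, Phi, ?_, fun _ _ _ => Phi_edge,
    fun G G' φ U U' h e => Phi_map φ.toEquiv (fun _ _ => φ.map_rel_iff) h e,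
    fun G h1 h2 => isFUSF h1 h2⟩
  · have := countable_of_connected (cayley_connected h2) (cayley_finite h1)
    exact ⟨Phi (SimpleGraph.mulCayley S), measurable_pi_lambda _ (measurable_Phi
      (G := fun _ => SimpleGraph.mulCayley S) (fun _ _ => measurable_const) measurable_pi_apply),
      fun _ _ => Phi_edge, fun γ U e => Phi_map (Equiv.mulLeft γ)
        (fun _ _ => SimpleGraph.mulCayley_adj_mul_iff_right) (fun v => by simp) e,
      isFUSF (cayley_connected h2) (cayley_finite h1)⟩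
  · exact measurable_pi_lambda _ (measurable_Phi (G := fun p : SimpleGraph ℕ × (ℕ → I) => p.1)
      (U := fun p => p.2) (SimpleGraph.measurable_iff_adj.1 measurable_fst)
      fun v => (measurable_pi_apply v).comp measurable_snd)
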